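import Mathlib

namespace Vale.Agent.Results.P068.RankTwo

/-- `SatisfiesIntersection M N`: some set independent in both matroids is the disjoint union of
two sets `JM`, `JN` such that the closure of `JM` in `M` and the closure of `JN` in `N` together
cover the ground set. -/
def SatisfiesIntersection {α : Type*} (M N : Matroid α) : Prop :=
  ∃ JM JN : Set α, Disjoint JM JN ∧ M.Indep (JM ∪ JN) ∧ N.Indep (JM ∪ JN) ∧
    M.closure JM ∪ N.closure JN = M.E

theorem nonloop_of_notMem {α : Type*} (M : Matroid α) {h : α} (hE : h ∈ M.E)
    (hn : h ∉ M.closure ∅) : M.Indep {h} := by
  have h1 := (M.empty_indep.notMem_closure_iff hE).mp hn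
  simpa using h1.1

theorem mem_closure_of_not_indep {α : Type*} (M : Matroid α) {x y : α} (hy : M.Indep {y})
    (hx : x ∈ M.E) (h : ¬ M.Indep {x, y}) : x ∈ M.closure {y} := by
  rw [hy.mem_closure_iff]
  left
  refine ⟨h, ?_⟩
  intro z hz
  rcases hz with rfl | hz
  · exact hx
  · exact hy.subset_ground hz

theorem intersection_of_rank_le_two {α : Type*} (M N : Matroid α) (hE : M.E = N.E)
    (hr : ∀ I, N.Indep I → I.encard ≤ 2) : SatisfiesIntersection M N := by
  classical
  by_cases h1 : ∃ e f, e ≠ f ∧ M.Indep {e, f} ∧ N.Indep {e, f}
  · obtain ⟨e, f, hef, hM, hN⟩ := h1
    have hB : N.IsBase {e, f} := by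
      refine hN.isBase_of_maximal ?_
      intro J hJ hsub
      refine Set.Finite.eq_of_subset_of_encard_le ((Set.finite_singleton f).insert e) hsub ?_
      rw [Set.encard_pair hef]
      exact hr J hJ
    refine ⟨∅, {e, f}, Set.empty_disjoint _, ?_, ?_, ?_⟩
    · rw [Set.empty_union]
      exact hM
    · rw [Set.empty_union]
      exact hN
    · rw [hB.closure_eq, ← hE]
      exact Set.union_eq_self_of_subset_left (M.closure_subset_ground ∅)
  · by_cases h2 : ∃ e, M.Indep {e} ∧ N.Indep {e}
    · obtain ⟨e, heM, heN⟩ := h2
      have heE : e ∈ M.E := heM.subset_ground (Set.mem_singleton e)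
      by_cases h3 : ∀ g ∈ M.E, g ∈ N.closure {e} ∨ g ∈ M.closure ∅
      · refine ⟨∅, {e}, Set.empty_disjoint _, ?_, ?_, ?_⟩
        · rw [Set.empty_union]
          exact heM
        · rw [Set.empty_union]
          exact heN
        · apply Set.Subset.antisymm
          · refine Set.union_subset (M.closure_subset_ground ∅) ?_
            rw [hE]
            exact N.closure_subset_ground {e}
          · intro g hg
            rcases h3 g hg with h | h
            · exact Or.inr h
            · exact Or.inl h
      · push Not at h3
        obtain ⟨g, hgE, hgN, hgM⟩ := h3
        have hgE' : g ∈ N.E := hE ▸ hgE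
        have hgN' := (heN.notMem_closure_iff hgE').mp hgN
        have hge : g ≠ e := fun h => hgN'.2 (by rw [h]; exact Set.mem_singleton e)
        have hgMi : M.Indep {g} := nonloop_of_notMem M hgE hgM
        have hgeM : g ∈ M.closure {e} := by
          refine mem_closure_of_not_indep M heM hgE ?_
          intro hind
          exact h1 ⟨g, e, hge, hind, hgN'.1⟩
        refine ⟨{e}, ∅, Set.disjoint_empty _, ?_, ?_, ?_⟩
        · rw [Set.union_empty]
          exact heM
        · rw [Set.union_empty]
          exact heN
        · apply Set.Subset.antisymm
          · refine Set.union_subset (M.closure_subset_ground {e}) ?_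
            rw [hE]
            exact N.closure_subset_ground ∅
          · intro h hh
            by_cases hhN : h ∈ N.closure ∅
            · exact Or.inr hhN
            left
            have hhE' : h ∈ N.E := hE ▸ hh
            have hhNi : N.Indep {h} := nonloop_of_notMem N hhE' hhN
            by_cases hhe : h = e
            · rw [hhe]
              exact M.mem_closure_of_mem (Set.mem_singleton e) (Set.singleton_subset_iff.mpr heE)
            by_cases hN2 : N.Indep {h, e}
            · refine mem_closure_of_not_indep M heM hh ?_
              intro hind
              exact h1 ⟨h, e, hhe, hind, hN2⟩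
            · have hhcl : h ∈ N.closure {e} := mem_closure_of_not_indep N heN hhE' hN2
              have hgh : g ≠ h := fun hh' => hgN (hh' ▸ hhcl)
              have hN3 : N.Indep {g, h} := by
                by_contra hcon
                have hg1 : g ∈ N.closure {h} := mem_closure_of_not_indep N hhNi hgE' hcon
                have hsub : N.closure {h} ⊆ N.closure {e} :=
                  Matroid.closure_subset_closure_of_subset_closure
                    (Set.singleton_subset_iff.mpr hhcl)
                exact hgN (hsub hg1)
              have hM3 : h ∈ M.closure {g} := by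
                refine mem_closure_of_not_indep M hgMi hh ?_
                intro hind
                rw [Set.pair_comm] at hind
                exact h1 ⟨g, h, hgh, hind, hN3⟩
              have hsub : M.closure {g} ⊆ M.closure {e} :=
                Matroid.closure_subset_closure_of_subset_closure
                  (Set.singleton_subset_iff.mpr hgeM)
              exact hsub hM3
    · refine ⟨∅, ∅, Set.disjoint_empty _, ?_, ?_, ?_⟩
      · rw [Set.union_empty]
        exact M.empty_indep
      · rw [Set.union_empty]
        exact N.empty_indep
      · apply Set.Subset.antisymm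
        · refine Set.union_subset (M.closure_subset_ground ∅) ?_
          rw [hE]
          exact N.closure_subset_ground ∅
        · intro h hh
          by_contra hcon
          rw [Set.mem_union, not_or] at hcon
          exact h2 ⟨h, nonloop_of_notMem M hh hcon.1, nonloop_of_notMem N (hE ▸ hh) hcon.2⟩

theorem satisfiesIntersection_symm {α : Type*} (M N : Matroid α) (hE : M.E = N.E)
    (h : SatisfiesIntersection N M) : SatisfiesIntersection M N := by
  obtain ⟨JN, JM, hd, hN, hM, hcl⟩ := h
  refine ⟨JM, JN, hd.symm, ?_, ?_, ?_⟩
  · rw [Set.union_comm]
    exact hM
  · rw [Set.union_comm]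
    exact hN
  · rw [Set.union_comm, hcl, hE]

/-- **Matroid intersection when one matroid has rank at most two.** If `M` and `N` are matroids
(possibly infinite, in the sense of Mathlib) on the same ground set and every independent set of
one of them has at most two elements, then the pair satisfies intersection. -/
theorem result :
    ∀ (α : Type) (M N : Matroid α), M.E = N.E →
      ((∀ I, M.Indep I → I.encard ≤ 2) ∨ (∀ I, N.Indep I → I.encard ≤ 2)) →
      SatisfiesIntersection M N := by
  intro α M N hE h
  rcases h with h | h
  · exact satisfiesIntersection_symm M N hE (intersection_of_rank_le_two N M hE.symm h)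
  · exact intersection_of_rank_le_two M N hE h

end Vale.Agent.Results.P068.RankTwo
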