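import Mathlib
import Vale.Agent.Results.P068.RankTwo

namespace Vale.Agent.Results.P068.FiniteRank

open Vale.Agent.Results.P068.RankTwo

/-- If `z` lies in the closure of the independent set `J`, it already lies in the closure of the
set of those `y ∈ J` that cannot be removed (the fundamental circuit of `z`, without `z`). -/
theorem mem_closure_core {α : Type*} (M : Matroid α) {J : Set α} (hJ : M.Indep J) {z : α}
    (hz : z ∈ M.closure J) : z ∈ M.closure {y | y ∈ J ∧ z ∉ M.closure (J \ {y})} := by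
  obtain ⟨Js, hJs⟩ : ∃ Js : Set (Set α),
      ∀ S, S ∈ Js ↔ (S = J ∨ ∃ y, z ∈ M.closure (J \ {y}) ∧ S = J \ {y}) :=
    ⟨{S | S = J ∨ ∃ y, z ∈ M.closure (J \ {y}) ∧ S = J \ {y}}, fun S => Iff.rfl⟩
  have hne : Js.Nonempty := ⟨J, (hJs J).mpr (Or.inl rfl)⟩
  have hsub : ∀ S ∈ Js, S ⊆ J := by
    intro S hS
    rcases (hJs S).mp hS with rfl | ⟨y, -, rfl⟩
    · exact subset_rfl
    · exact Set.sdiff_subset
  have h1 := hJ.closure_sInter_eq_biInter_closure_of_forall_subset hne hsub
  have h2 : z ∈ ⋂ S ∈ Js, M.closure S := by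
    refine Set.mem_iInter₂.mpr (fun S hS => ?_)
    rcases (hJs S).mp hS with rfl | ⟨y, hy, rfl⟩
    · exact hz
    · exact hy
  rw [← h1] at h2
  refine M.closure_subset_closure ?_ h2
  intro x hx
  have hxJ : x ∈ J := Set.mem_sInter.mp hx J ((hJs J).mpr (Or.inl rfl))
  refine ⟨hxJ, fun hcl => ?_⟩
  have h3 : x ∈ J \ {x} := Set.mem_sInter.mp hx (J \ {x}) ((hJs _).mpr (Or.inr ⟨x, hcl, rfl⟩))
  exact h3.2 rfl

/-- Backward reachability levels of the exchange graph of a common independent set `J`: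
level `0` consists of the elements outside the `N`-closure of `J`; an element `z` enters level
`k + 1` if for some `y ∈ J` and some `z'` of level `k`, `z` is not in the `N`-closure of
`J \ {y}` and `z'` is not in the `M`-closure of `J \ {y}`. -/
def Lev {α : Type*} (M N : Matroid α) (J : Set α) : ℕ → Set α
  | 0 => {z | z ∈ M.E ∧ z ∉ N.closure J}
  | (k + 1) => Lev M N J k ∪ {z | z ∈ M.E ∧ ∃ z' ∈ Lev M N J k, ∃ y ∈ J,
      z ∉ N.closure (J \ {y}) ∧ z' ∉ M.closure (J \ {y})}

theorem mem_Lev_zero {α : Type*} (M N : Matroid α) (J : Set α) (z : α) :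
    z ∈ Lev M N J 0 ↔ z ∈ M.E ∧ z ∉ N.closure J := Iff.rfl

theorem mem_Lev_succ {α : Type*} (M N : Matroid α) (J : Set α) (k : ℕ) (z : α) :
    z ∈ Lev M N J (k + 1) ↔ z ∈ Lev M N J k ∨ (z ∈ M.E ∧ ∃ z' ∈ Lev M N J k, ∃ y ∈ J,
      z ∉ N.closure (J \ {y}) ∧ z' ∉ M.closure (J \ {y})) := Iff.rfl

theorem Lev_subset_ground {α : Type*} (M N : Matroid α) (J : Set α) :
    ∀ k, Lev M N J k ⊆ M.E := by
  intro k
  induction k with
  | zero => intro z hz; exact ((mem_Lev_zero M N J z).mp hz).1
  | succ k ih =>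
    intro z hz
    rcases (mem_Lev_succ M N J k z).mp hz with h | h
    · exact ih h
    · exact h.1

theorem Lev_mem_J {α : Type*} (M N : Matroid α) {J : Set α} (hNJ : N.Indep J) :
    ∀ m, ∀ y ∈ J, y ∈ Lev M N J m → ∃ k, ∃ z' ∈ Lev M N J k, z' ∉ M.closure (J \ {y}) := by
  intro m
  induction m with
  | zero =>
    intro y hyJ hy
    exact absurd (N.mem_closure_of_mem hyJ hNJ.subset_ground) ((mem_Lev_zero M N J y).mp hy).2
  | succ m ih =>
    intro y hyJ hy
    rcases (mem_Lev_succ M N J m y).mp hy with h | ⟨-, z', hz', y', hy'J, h1, h2⟩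
    · exact ih y hyJ h
    · by_cases hyy : y = y'
      · subst hyy; exact ⟨m, z', hz', h2⟩
      · exact absurd (N.mem_closure_of_mem (show y ∈ J \ {y'} from ⟨hyJ, hyy⟩)
          (Set.sdiff_subset.trans hNJ.subset_ground)) h1

/-- The augmentation step, in closure form: a sequence `z 0, y 1, z 1, …, y k, z k` without
shortcuts yields a common independent set with one more element. -/
theorem augment {α : Type*} (M N : Matroid α) (hE : M.E = N.E) :
    ∀ (k : ℕ) (J : Set α) (z y : ℕ → α), M.Indep J → N.Indep J →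
      (∀ i, i ≤ k → z i ∈ M.E) →
      (∀ i, 1 ≤ i → i ≤ k → y i ∈ J) →
      z 0 ∉ M.closure J →
      (∀ j, 1 ≤ j → j ≤ k → z j ∈ M.closure J) →
      (∀ i j, 1 ≤ i → i < j → j ≤ k → z j ∈ M.closure (J \ {y i})) →
      (∀ j, 1 ≤ j → j ≤ k → z j ∉ M.closure (J \ {y j})) →
      z k ∉ N.closure J →
      (∀ a, a < k → z a ∈ N.closure J) →
      (∀ a b, a + 1 < b → b ≤ k → z a ∈ N.closure (J \ {y b})) →
      (∀ a, a < k → z a ∉ N.closure (J \ {y (a + 1)})) →
      ∃ J' : Set α, M.Indep J' ∧ N.Indep J' ∧ J'.encard = J.encard + 1 := by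
  intro k
  induction k with
  | zero =>
    intro J z y hMJ hNJ hzE hyJ hd he0 he hf hg hh0 hh hi
    have hz0E : z 0 ∈ M.E := hzE 0 le_rfl
    have h1 := (hMJ.notMem_closure_iff hz0E).mp hd
    have h2 := (hNJ.notMem_closure_iff (hE ▸ hz0E)).mp hg
    exact ⟨insert (z 0) J, h1.1, h2.1, Set.encard_insert_of_notMem h1.2⟩
  | succ k ih =>
    intro J z y hMJ hNJ hzE hyJ hd he0 he hf hg hh0 hh hi
    have hz0E : z 0 ∈ M.E := hzE 0 (Nat.zero_le _)
    have hJE : J ⊆ M.E := hMJ.subset_ground
    have hJNE : J ⊆ N.E := hNJ.subset_ground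
    have hz0J : z 0 ∉ J := fun h => hd (M.mem_closure_of_mem h hJE)
    have hy1 : y 1 ∈ J := hyJ 1 le_rfl (by omega)
    have hMins : M.Indep (insert (z 0) J) := ((hMJ.notMem_closure_iff hz0E).mp hd).1
    have hz0N : z 0 ∉ N.closure (J \ {y 1}) := hi 0 (by omega)
    have hNd : N.Indep (J \ {y 1}) := hNJ.subset Set.sdiff_subset
    have hNJ' : N.Indep (insert (z 0) (J \ {y 1})) :=
      ((hNd.notMem_closure_iff (hE ▸ hz0E)).mp hz0N).1
    have hMJ' : M.Indep (insert (z 0) (J \ {y 1})) :=
      hMins.subset (Set.insert_subset_insert Set.sdiff_subset)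
    have hyne : ∀ i, 1 ≤ i → i ≤ k → y (i + 1) ≠ y 1 := by
      intro i h1 h2 heq
      have ha := he 1 (i + 1) le_rfl (by omega) (by omega)
      have hb := hf (i + 1) (by omega) (by omega)
      rw [heq] at hb
      exact hb ha
    have hins : insert (y 1) (J \ {y 1}) = J := by
      ext x
      constructor
      · rintro (rfl | h)
        · exact hy1
        · exact h.1
      · intro h
        by_cases hx : x = y 1
        · exact Or.inl hx
        · exact Or.inr ⟨h, hx⟩
    -- the new hypotheses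
    have hb' : ∀ i, i ≤ k → z (i + 1) ∈ M.E := fun i hi => hzE (i + 1) (by omega)
    have hc' : ∀ i, 1 ≤ i → i ≤ k → y (i + 1) ∈ insert (z 0) (J \ {y 1}) :=
      fun i h1 h2 => Or.inr ⟨hyJ (i + 1) (by omega) (by omega), hyne i h1 h2⟩
    have hd' : z 1 ∉ M.closure (insert (z 0) (J \ {y 1})) := by
      intro hcon
      have hz1 : z 1 ∉ M.closure (J \ {y 1}) := hf 1 le_rfl (by omega)
      have hex := (M.closure_exchange ⟨hcon, hz1⟩).1
      have hsub : insert (z 1) (J \ {y 1}) ⊆ M.closure J := by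
        intro x hx
        rcases hx with hx | hx
        · rw [hx]; exact he0 1 le_rfl (by omega)
        · exact M.mem_closure_of_mem hx.1 hJE
      exact hd (M.closure_subset_closure_of_subset_closure hsub hex)
    have he0' : ∀ j, 1 ≤ j → j ≤ k → z (j + 1) ∈ M.closure (insert (z 0) (J \ {y 1})) :=
      fun j h1 h2 => M.closure_subset_closure (Set.subset_insert _ _)
        (he 1 (j + 1) le_rfl (by omega) (by omega))
    have he' : ∀ i j, 1 ≤ i → i < j → j ≤ k →
        z (j + 1) ∈ M.closure (insert (z 0) (J \ {y 1}) \ {y (i + 1)}) := by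
      intro i j h1 h2 h3
      have ha : z (j + 1) ∈ M.closure (J \ {y 1}) := he 1 (j + 1) le_rfl (by omega) (by omega)
      have hb : z (j + 1) ∈ M.closure (J \ {y (i + 1)}) :=
        he (i + 1) (j + 1) (by omega) (by omega) (by omega)
      have hind : M.Indep ((J \ {y 1}) ∪ (J \ {y (i + 1)})) :=
        hMJ.subset (Set.union_subset Set.sdiff_subset Set.sdiff_subset)
      have hc : z (j + 1) ∈ M.closure ((J \ {y 1}) ∩ (J \ {y (i + 1)})) := by
        rw [hind.closure_inter_eq_inter_closure]; exact ⟨ha, hb⟩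
      refine M.closure_subset_closure ?_ hc
      rintro x ⟨hx1, hx2⟩
      exact ⟨Or.inr hx1, hx2.2⟩
    have hf' : ∀ j, 1 ≤ j → j ≤ k →
        z (j + 1) ∉ M.closure (insert (z 0) (J \ {y 1}) \ {y (j + 1)}) := by
      intro j h1 h2 hcon
      have ha : z (j + 1) ∈ M.closure (J \ {y 1}) := he 1 (j + 1) le_rfl (by omega) (by omega)
      have hind : M.Indep ((insert (z 0) (J \ {y 1}) \ {y (j + 1)}) ∪ (J \ {y 1})) := by
        refine hMins.subset ?_
        intro x hx
        rcases hx with ⟨hx | hx, -⟩ | hx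
        · exact Or.inl hx
        · exact Or.inr hx.1
        · exact Or.inr hx.1
      have hc : z (j + 1) ∈
          M.closure ((insert (z 0) (J \ {y 1}) \ {y (j + 1)}) ∩ (J \ {y 1})) := by
        rw [hind.closure_inter_eq_inter_closure]; exact ⟨hcon, ha⟩
      refine hf (j + 1) (by omega) (by omega) (M.closure_subset_closure ?_ hc)
      rintro x ⟨hx1, hx2⟩
      exact ⟨hx2.1, hx1.2⟩
    have hg' : z (k + 1) ∉ N.closure (insert (z 0) (J \ {y 1})) := by
      intro hcon
      have hsub : insert (z 0) (J \ {y 1}) ⊆ N.closure J := by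
        intro x hx
        rcases hx with hx | hx
        · rw [hx]; exact hh0 0 (by omega)
        · exact N.mem_closure_of_mem hx.1 hJNE
      exact hg (N.closure_subset_closure_of_subset_closure hsub hcon)
    have hy1cl : y 1 ∈ N.closure (insert (z 0) (J \ {y 1})) := by
      have hz0cl : z 0 ∈ N.closure (insert (y 1) (J \ {y 1})) := by
        rw [hins]; exact hh0 0 (by omega)
      exact (N.closure_exchange ⟨hz0cl, hz0N⟩).1
    have hJsub : J ⊆ N.closure (insert (z 0) (J \ {y 1})) := by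
      intro x hx
      by_cases hxy : x = y 1
      · rw [hxy]; exact hy1cl
      · exact N.mem_closure_of_mem (Or.inr ⟨hx, hxy⟩) hNJ'.subset_ground
    have hh0' : ∀ a, a < k → z (a + 1) ∈ N.closure (insert (z 0) (J \ {y 1})) := fun a ha =>
      N.closure_subset_closure_of_subset_closure hJsub (hh0 (a + 1) (by omega))
    have hh' : ∀ a b, a + 1 < b → b ≤ k →
        z (a + 1) ∈ N.closure (insert (z 0) (J \ {y 1}) \ {y (b + 1)}) := by
      intro a b h1 h2
      have hyb : y (b + 1) ∈ J := hyJ (b + 1) (by omega) (by omega)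
      have hz0b : z 0 ≠ y (b + 1) := fun h => hz0J (h ▸ hyb)
      have ha : z (a + 1) ∈ N.closure (J \ {y (b + 1)}) :=
        hh (a + 1) (b + 1) (by omega) (by omega)
      have hz0cl : z 0 ∈ N.closure (insert (y 1) ((J \ {y 1}) \ {y (b + 1)})) := by
        refine N.closure_subset_closure ?_ (hh 0 (b + 1) (by omega) (by omega))
        rintro x ⟨hx1, hx2⟩
        by_cases hxy : x = y 1
        · exact Or.inl hxy
        · exact Or.inr ⟨⟨hx1, hxy⟩, hx2⟩
      have hz0n : z 0 ∉ N.closure ((J \ {y 1}) \ {y (b + 1)}) := fun h =>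
        hz0N (N.closure_subset_closure Set.sdiff_subset h)
      have hy1' : y 1 ∈ N.closure (insert (z 0) ((J \ {y 1}) \ {y (b + 1)})) :=
        (N.closure_exchange ⟨hz0cl, hz0n⟩).1
      have hsubset : insert (z 0) ((J \ {y 1}) \ {y (b + 1)}) ⊆
          insert (z 0) (J \ {y 1}) \ {y (b + 1)} := by
        intro x hx
        rcases hx with hx | ⟨hx1, hx2⟩
        · rw [hx]; exact ⟨Or.inl rfl, hz0b⟩
        · exact ⟨Or.inr hx1, hx2⟩
      have hgr : insert (z 0) (J \ {y 1}) \ {y (b + 1)} ⊆ N.E :=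
        Set.sdiff_subset.trans hNJ'.subset_ground
      refine N.closure_subset_closure_of_subset_closure ?_ ha
      rintro x ⟨hx1, hx2⟩
      by_cases hxy : x = y 1
      · rw [hxy]; exact N.closure_subset_closure hsubset hy1'
      · exact N.mem_closure_of_mem ⟨Or.inr ⟨hx1, hxy⟩, hx2⟩ hgr
    have hi' : ∀ a, a < k →
        z (a + 1) ∉ N.closure (insert (z 0) (J \ {y 1}) \ {y (a + 1 + 1)}) := by
      intro a ha hcon
      have hsub : insert (z 0) (J \ {y 1}) \ {y (a + 1 + 1)} ⊆
          N.closure (J \ {y (a + 1 + 1)}) := by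
        rintro x ⟨hx1, hx2⟩
        rcases hx1 with hx1 | hx1
        · rw [hx1]; exact hh 0 (a + 1 + 1) (by omega) (by omega)
        · exact N.mem_closure_of_mem ⟨hx1.1, hx2⟩ (Set.sdiff_subset.trans hJNE)
      exact hi (a + 1) (by omega) (N.closure_subset_closure_of_subset_closure hsub hcon)
    obtain ⟨J', h1, h2, h3⟩ := ih (insert (z 0) (J \ {y 1})) (fun i => z (i + 1))
      (fun i => y (i + 1)) hMJ' hNJ' hb' hc' hd' he0' he' hf' hg' hh0' hh' hi'
    refine ⟨J', h1, h2, ?_⟩
    rw [h3, Set.encard_insert_of_notMem (fun h => hz0J h.1),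
      Set.encard_sdiff_singleton_add_one hy1]

/-- A shortest-path style sequence through the levels. -/
theorem exists_path {α : Type*} (M N : Matroid α) (J : Set α) (k : ℕ) (s : α)
    (hs : s ∈ Lev M N J k) (hmin : ∀ j, j < k → s ∉ Lev M N J j) :
    ∀ m, m ≤ k → ∃ z y : ℕ → α, z 0 = s ∧
      (∀ i, i ≤ m → z i ∈ Lev M N J (k - i) ∧ ∀ j, j < k - i → z i ∉ Lev M N J j) ∧
      (∀ i, i < m → y (i + 1) ∈ J ∧ z i ∉ N.closure (J \ {y (i + 1)}) ∧
        z (i + 1) ∉ M.closure (J \ {y (i + 1)})) := by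
  intro m
  induction m with
  | zero =>
    intro _
    refine ⟨fun _ => s, fun _ => s, rfl, ?_, ?_⟩
    · intro i hi
      have hi0 : i = 0 := by omega
      subst hi0
      exact ⟨hs, fun j hj => hmin j (by omega)⟩
    · intro i hi; omega
  | succ m ih =>
    intro hm
    obtain ⟨z, y, hz0, hz, hy⟩ := ih (by omega)
    obtain ⟨hzm, hzm'⟩ := hz m le_rfl
    obtain ⟨d, hd⟩ : ∃ d, k - m = d + 1 := ⟨k - m - 1, by omega⟩
    rw [hd] at hzm
    rcases (mem_Lev_succ M N J d (z m)).mp hzm with h | ⟨hzE, z', hz', y', hy'J, h1, h2⟩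
    · exact absurd h (hzm' d (by omega))
    · obtain ⟨z2, hz2a, hz2b⟩ : ∃ z2 : ℕ → α, (∀ i, i ≤ m → z2 i = z i) ∧ z2 (m + 1) = z' :=
        ⟨fun i => if i ≤ m then z i else z', fun i hi => if_pos hi, if_neg (by omega)⟩
      obtain ⟨y2, hy2a, hy2b⟩ : ∃ y2 : ℕ → α, (∀ i, i ≤ m → y2 i = y i) ∧ y2 (m + 1) = y' :=
        ⟨fun i => if i ≤ m then y i else y', fun i hi => if_pos hi, if_neg (by omega)⟩
      refine ⟨z2, y2, ?_, ?_, ?_⟩
      · rw [hz2a 0 (Nat.zero_le _)]; exact hz0
      · intro i hi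
        rcases Nat.lt_or_ge i (m + 1) with hlt | hge
        · rw [hz2a i (by omega)]; exact hz i (by omega)
        · have him : i = m + 1 := by omega
          subst him
          rw [hz2b]
          have hkd : k - (m + 1) = d := by omega
          rw [hkd]
          refine ⟨hz', fun j hj hcon => ?_⟩
          exact hzm' (j + 1) (by omega) ((mem_Lev_succ M N J j (z m)).mpr
            (Or.inr ⟨hzE, z', hcon, y', hy'J, h1, h2⟩))
      · intro i hi
        rcases Nat.lt_or_ge i m with hlt | hge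
        · rw [hy2a (i + 1) (by omega), hz2a i (by omega), hz2a (i + 1) (by omega)]
          exact hy i hlt
        · have him : i = m := by omega
          subst him
          rw [hy2b, hz2a i le_rfl, hz2b]
          exact ⟨hy'J, h1, h2⟩

/-- If some element outside the `M`-closure of `J` is reachable, `J` can be augmented. -/
theorem augment_of_reach {α : Type*} (M N : Matroid α) (hE : M.E = N.E) {J : Set α}
    (hMJ : M.Indep J) (hNJ : N.Indep J)
    (hreach : ∃ k, ∃ s ∈ Lev M N J k, s ∉ M.closure J) :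
    ∃ J' : Set α, M.Indep J' ∧ N.Indep J' ∧ J'.encard = J.encard + 1 := by
  classical
  have hspec := Nat.find_spec hreach
  have hminF : ∀ j, j < Nat.find hreach → ¬ ∃ s ∈ Lev M N J j, s ∉ M.closure J :=
    fun j hj => Nat.find_min hreach hj
  generalize Nat.find hreach = k at hspec hminF
  obtain ⟨s, hsk, hsn⟩ := hspec
  have hmin : ∀ j, j < k → ∀ s' ∈ Lev M N J j, s' ∈ M.closure J := by
    intro j hj s' hs'
    by_contra hcon
    exact hminF j hj ⟨s', hs', hcon⟩
  obtain ⟨z, y, hz0, hz, hy⟩ :=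
    exists_path M N J k s hsk (fun j hj h => hsn (hmin j hj s h)) k le_rfl
  have hzE : ∀ i, i ≤ k → z i ∈ M.E := fun i hi => Lev_subset_ground M N J _ (hz i hi).1
  refine augment M N hE k J z y hMJ hNJ hzE ?_ ?_ ?_ ?_ ?_ ?_ ?_ ?_ ?_
  · intro i h1 h2
    obtain ⟨i', rfl⟩ : ∃ i', i = i' + 1 := ⟨i - 1, by omega⟩
    exact (hy i' (by omega)).1
  · rw [hz0]; exact hsn
  · intro j h1 h2
    exact hmin (k - j) (by omega) (z j) (hz j h2).1
  · intro i j h1 h2 h3
    obtain ⟨i', rfl⟩ : ∃ i', i = i' + 1 := ⟨i - 1, by omega⟩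
    by_contra hcon
    obtain ⟨hyJ, hN, -⟩ := hy i' (by omega)
    have hmem : z i' ∈ Lev M N J (k - j + 1) :=
      (mem_Lev_succ M N J (k - j) (z i')).mpr
        (Or.inr ⟨hzE i' (by omega), z j, (hz j h3).1, y (i' + 1), hyJ, hN, hcon⟩)
    exact (hz i' (by omega)).2 (k - j + 1) (by omega) hmem
  · intro j h1 h2
    obtain ⟨j', rfl⟩ : ∃ j', j = j' + 1 := ⟨j - 1, by omega⟩
    exact (hy j' (by omega)).2.2
  · have h0 := (hz k le_rfl).1
    rw [Nat.sub_self] at h0
    exact ((mem_Lev_zero M N J (z k)).mp h0).2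
  · intro a ha
    by_contra hcon
    exact (hz a (by omega)).2 0 (by omega)
      ((mem_Lev_zero M N J (z a)).mpr ⟨hzE a (by omega), hcon⟩)
  · intro a b h1 h2
    obtain ⟨b', rfl⟩ : ∃ b', b = b' + 1 := ⟨b - 1, by omega⟩
    by_contra hcon
    obtain ⟨hyJ, -, hMn⟩ := hy b' (by omega)
    have hmem : z a ∈ Lev M N J (k - (b' + 1) + 1) :=
      (mem_Lev_succ M N J (k - (b' + 1)) (z a)).mpr
        (Or.inr ⟨hzE a (by omega), z (b' + 1), (hz (b' + 1) h2).1, y (b' + 1), hyJ, hcon, hMn⟩)
    exact (hz a (by omega)).2 (k - (b' + 1) + 1) (by omega) hmem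
  · intro a ha
    exact (hy a ha).2.1

/-- If no element outside the `M`-closure of `J` is reachable, the reachable part of `J` and
the rest of `J` witness the intersection property. -/
theorem cover_of_no_reach {α : Type*} (M N : Matroid α) (hE : M.E = N.E) {J : Set α}
    (hMJ : M.Indep J) (hNJ : N.Indep J)
    (hno : ∀ k, ∀ s ∈ Lev M N J k, s ∈ M.closure J) : SatisfiesIntersection M N := by
  refine ⟨J ∩ {z | ∃ k, z ∈ Lev M N J k}, J \ {z | ∃ k, z ∈ Lev M N J k},
    Set.disjoint_left.mpr (fun x hx hx' => hx'.2 hx.2), ?_, ?_, ?_⟩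
  · rw [Set.inter_union_sdiff]; exact hMJ
  · rw [Set.inter_union_sdiff]; exact hNJ
  · apply Set.Subset.antisymm
    · rintro z (h | h)
      · exact M.closure_subset_ground _ h
      · rw [hE]; exact N.closure_subset_ground _ h
    · intro z hz
      by_cases hW : ∃ k, z ∈ Lev M N J k
      · left
        obtain ⟨k, hk⟩ := hW
        have hcore := mem_closure_core M hMJ (hno k z hk)
        refine M.closure_subset_closure ?_ hcore
        rintro y ⟨hyJ, hy⟩
        exact ⟨hyJ, k + 1, (mem_Lev_succ M N J k y).mpr (Or.inr ⟨hMJ.subset_ground hyJ, z, hk,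
          y, hyJ, hNJ.notMem_closure_sdiff_of_mem hyJ, hy⟩)⟩
      · right
        have hclN : z ∈ N.closure J := by
          by_contra h
          exact hW ⟨0, (mem_Lev_zero M N J z).mpr ⟨hz, h⟩⟩
        have hcore := mem_closure_core N hNJ hclN
        refine N.closure_subset_closure ?_ hcore
        rintro y ⟨hyJ, hy⟩
        refine ⟨hyJ, ?_⟩
        rintro ⟨m, hm⟩
        obtain ⟨k, z', hz', h2⟩ := Lev_mem_J M N hNJ m y hyJ hm
        exact hW ⟨k + 1, (mem_Lev_succ M N J k z).mpr (Or.inr ⟨hz, z', hz', y, hyJ, hy, h2⟩)⟩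

/-- Matroid intersection when the common independent sets of `M` and `N` have bounded size. -/
theorem intersection_of_bounded {α : Type*} (M N : Matroid α) (hE : M.E = N.E) (r : ℕ)
    (hr : ∀ I, M.Indep I → N.Indep I → I.encard ≤ r) : SatisfiesIntersection M N := by
  have key : ∀ n : ℕ, ∀ J : Set α, M.Indep J → N.Indep J → (r : ℕ∞) ≤ J.encard + n →
      SatisfiesIntersection M N := by
    intro n
    induction n with
    | zero =>
      intro J hMJ hNJ hle
      by_cases hreach : ∃ k, ∃ s ∈ Lev M N J k, s ∉ M.closure J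
      · exfalso
        obtain ⟨J', h1, h2, h3⟩ := augment_of_reach M N hE hMJ hNJ hreach
        have h4 := hr J' h1 h2
        rw [h3] at h4
        have hle' : (r : ℕ∞) ≤ J.encard := by simpa using hle
        have hfin : J.encard ≠ ⊤ := ne_top_of_le_ne_top (ENat.natCast_ne_top r) (hr J hMJ hNJ)
        exact lt_irrefl _ ((ENat.add_one_le_iff hfin).mp (h4.trans hle'))
      · push Not at hreach
        exact cover_of_no_reach M N hE hMJ hNJ hreach
    | succ n ih =>
      intro J hMJ hNJ hle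
      by_cases hreach : ∃ k, ∃ s ∈ Lev M N J k, s ∉ M.closure J
      · obtain ⟨J', h1, h2, h3⟩ := augment_of_reach M N hE hMJ hNJ hreach
        refine ih J' h1 h2 ?_
        rw [h3]
        calc (r : ℕ∞) ≤ J.encard + ((n + 1 : ℕ) : ℕ∞) := hle
          _ = J.encard + 1 + n := by push_cast; ring
      · push Not at hreach
        exact cover_of_no_reach M N hE hMJ hNJ hreach
  exact key r ∅ M.empty_indep N.empty_indep (by simp)

/-- The matroid intersection conjecture holds for every pair of matroids on a common ground set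
whose common independent sets have bounded size; in particular whenever one of the two matroids
has finite rank, the other matroid being arbitrary. -/
theorem result :
    (∀ (α : Type) (M N : Matroid α), M.E = N.E →
      (∃ r : ℕ, ∀ I, M.Indep I → N.Indep I → I.encard ≤ r) →
      SatisfiesIntersection M N) ∧
    (∀ (α : Type) (M N : Matroid α), M.E = N.E →
      ((∃ r : ℕ, ∀ I, M.Indep I → I.encard ≤ r) ∨ (∃ r : ℕ, ∀ I, N.Indep I → I.encard ≤ r)) →
      SatisfiesIntersection M N) := by
  refine ⟨fun α M N hE h => ?_, fun α M N hE h => ?_⟩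
  · obtain ⟨r, hr⟩ := h
    exact intersection_of_bounded M N hE r hr
  · rcases h with ⟨r, hr⟩ | ⟨r, hr⟩
    · exact intersection_of_bounded M N hE r (fun I hI _ => hr I hI)
    · exact intersection_of_bounded M N hE r (fun I _ hI => hr I hI)

end Vale.Agent.Results.P068.FiniteRank
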