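import Mathlib
import Vale.Agent.Results.P068.FiniteRank

namespace Vale.Agent.Results.P068.BlockSums

open Vale.Agent.Results.P068.RankTwo Vale.Agent.Results.P068.FiniteRank

/-- The closure in a restriction to a subset of the ground set lies in the closure. -/
theorem restrict_closure_subset {α : Type*} (M : Matroid α) {R X : Set α} (hR : R ⊆ M.E) :
    (M.restrict R).closure X ⊆ M.closure X := by
  intro x hx
  rw [Matroid.restrict_closure_eq'] at hx
  rcases hx with ⟨h, -⟩ | ⟨h1, h2⟩
  · exact M.closure_subset_closure Set.inter_subset_left h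
  · exact absurd (hR h1) h2

/-- If both matroids are direct sums along a common partition of the ground set into blocks and
the common independent sets inside each block have bounded size, the pair satisfies
intersection. -/
theorem block_sums {α : Type*} {ι : Type*} (M N : Matroid α) (hE : M.E = N.E) (P : ι → Set α)
    (hPE : ∀ i, P i ⊆ M.E) (hcov : M.E ⊆ ⋃ i, P i)
    (hdisj : ∀ i j, i ≠ j → Disjoint (P i) (P j))
    (hM : ∀ I, I ⊆ ⋃ i, P i → (∀ i, M.Indep (I ∩ P i)) → M.Indep I)
    (hN : ∀ I, I ⊆ ⋃ i, P i → (∀ i, N.Indep (I ∩ P i)) → N.Indep I)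
    (hb : ∀ i, ∃ r : ℕ, ∀ I, I ⊆ P i → M.Indep I → N.Indep I → I.encard ≤ r) :
    SatisfiesIntersection M N := by
  have hblock : ∀ i, ∃ JM JN : Set α, Disjoint JM JN ∧ (M.restrict (P i)).Indep (JM ∪ JN) ∧
      (N.restrict (P i)).Indep (JM ∪ JN) ∧
      (M.restrict (P i)).closure JM ∪ (N.restrict (P i)).closure JN = (M.restrict (P i)).E := by
    intro i
    obtain ⟨r, hr⟩ := hb i
    exact intersection_of_bounded (M.restrict (P i)) (N.restrict (P i)) rfl r
      (fun I h1 h2 => hr I (Matroid.restrict_indep_iff.mp h1).2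
        (Matroid.restrict_indep_iff.mp h1).1 (Matroid.restrict_indep_iff.mp h2).1)
  choose JM JN hdis hMi hNi hcl using hblock
  have hJP : ∀ i, JM i ∪ JN i ⊆ P i := fun i => (Matroid.restrict_indep_iff.mp (hMi i)).2
  have hMi' : ∀ i, M.Indep (JM i ∪ JN i) := fun i => (Matroid.restrict_indep_iff.mp (hMi i)).1
  have hNi' : ∀ i, N.Indep (JM i ∪ JN i) := fun i => (Matroid.restrict_indep_iff.mp (hNi i)).1
  have hmem : ∀ i j x, x ∈ JM j ∪ JN j → x ∈ P i → j = i := by
    intro i j x hx hxi
    by_contra hne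
    exact Set.disjoint_left.mp (hdisj j i hne) (hJP j hx) hxi
  have hsubU : (⋃ i, JM i) ∪ (⋃ i, JN i) ⊆ ⋃ i, P i := by
    rintro x (hx | hx)
    · obtain ⟨i, hi⟩ := Set.mem_iUnion.mp hx
      exact Set.mem_iUnion.mpr ⟨i, hJP i (Or.inl hi)⟩
    · obtain ⟨i, hi⟩ := Set.mem_iUnion.mp hx
      exact Set.mem_iUnion.mpr ⟨i, hJP i (Or.inr hi)⟩
  have htrace : ∀ i, ((⋃ i, JM i) ∪ (⋃ i, JN i)) ∩ P i ⊆ JM i ∪ JN i := by
    rintro i x ⟨hx | hx, hxi⟩
    · obtain ⟨j, hj⟩ := Set.mem_iUnion.mp hx
      have hji : j = i := hmem i j x (Or.inl hj) hxi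
      rw [hji] at hj
      exact Or.inl hj
    · obtain ⟨j, hj⟩ := Set.mem_iUnion.mp hx
      have hji : j = i := hmem i j x (Or.inr hj) hxi
      rw [hji] at hj
      exact Or.inr hj
  refine ⟨⋃ i, JM i, ⋃ i, JN i, ?_, ?_, ?_, ?_⟩
  · rw [Set.disjoint_left]
    intro x hx hx'
    obtain ⟨i, hi⟩ := Set.mem_iUnion.mp hx
    obtain ⟨j, hj⟩ := Set.mem_iUnion.mp hx'
    have hji : j = i := hmem i j x (Or.inr hj) (hJP i (Or.inl hi))
    rw [hji] at hj
    exact Set.disjoint_left.mp (hdis i) hi hj
  · exact hM _ hsubU (fun i => (hMi' i).subset (htrace i))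
  · exact hN _ hsubU (fun i => (hNi' i).subset (htrace i))
  · apply Set.Subset.antisymm
    · rintro x (h | h)
      · exact M.closure_subset_ground _ h
      · rw [hE]; exact N.closure_subset_ground _ h
    · intro x hx
      obtain ⟨i, hi⟩ := Set.mem_iUnion.mp (hcov hx)
      have hxi : x ∈ (M.restrict (P i)).closure (JM i) ∪ (N.restrict (P i)).closure (JN i) := by
        rw [hcl i]; exact hi
      have hPN : P i ⊆ N.E := by rw [← hE]; exact hPE i
      rcases hxi with h | h
      · left
        exact M.closure_subset_closure (Set.subset_iUnion JM i)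
          (restrict_closure_subset M (hPE i) h)
      · right
        exact N.closure_subset_closure (Set.subset_iUnion JN i)
          (restrict_closure_subset N hPN h)

/-- The matroid intersection conjecture for pairs of matroids that are direct sums along a common
partition of the ground set into blocks, when inside each block the common independent sets
have bounded size (the bound may depend on the block). -/
theorem result :
    ∀ (α ι : Type) (M N : Matroid α) (P : ι → Set α), M.E = N.E →
      (∀ i, P i ⊆ M.E) → (M.E ⊆ ⋃ i, P i) → (∀ i j, i ≠ j → Disjoint (P i) (P j)) →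
      (∀ I, I ⊆ ⋃ i, P i → (∀ i, M.Indep (I ∩ P i)) → M.Indep I) →
      (∀ I, I ⊆ ⋃ i, P i → (∀ i, N.Indep (I ∩ P i)) → N.Indep I) →
      (∀ i, ∃ r : ℕ, ∀ I, I ⊆ P i → M.Indep I → N.Indep I → I.encard ≤ r) →
      SatisfiesIntersection M N := by
  intro α ι M N P hE hPE hcov hdisj hM hN hb
  exact block_sums M N hE P hPE hcov hdisj hM hN hb

end Vale.Agent.Results.P068.BlockSums
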