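import Mathlib
import Vale.Agent.Results.P068.FiniteRank

namespace Vale.Agent.Results.P068.DirectSums

open Vale.Agent.Results.P068.RankTwo

/-- Membership in the closure of a blockwise independent set of a direct sum. -/
theorem sigma_mem_closure {ι : Type*} {α : ι → Type*} (M : (i : ι) → Matroid (α i))
    (J : (i : ι) → Set (α i)) (hJ : ∀ i, (M i).Indep (J i)) (i : ι) (a : α i)
    (ha : a ∈ (M i).closure (J i)) :
    (⟨i, a⟩ : (i : ι) × α i) ∈ (Matroid.sigma M).closure {p | p.2 ∈ J p.1} := by
  have hI : (Matroid.sigma M).Indep {p : (i : ι) × α i | p.2 ∈ J p.1} := by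
    rw [Matroid.sigma_indep_iff]
    intro j
    exact hJ j
  rw [hI.mem_closure_iff']
  rw [(hJ i).mem_closure_iff'] at ha
  refine ⟨?_, fun hind => ?_⟩
  · rw [Matroid.sigma_ground_eq]
    exact ⟨Set.mem_univ _, ha.1⟩
  · rw [Matroid.sigma_indep_iff] at hind
    have h1 := hind i
    have h2 : Sigma.mk i ⁻¹' (insert (⟨i, a⟩ : (i : ι) × α i) {p | p.2 ∈ J p.1})
        = insert a (J i) := by
      ext b
      simp only [Set.mem_preimage, Set.mem_insert_iff, Set.mem_ofPred_eq]
      constructor
      · rintro (h | h)
        · left
          exact eq_of_heq (Sigma.mk.inj h).2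
        · right; exact h
      · rintro (h | h)
        · left; rw [h]
        · right; exact h
    rw [h2] at h1
    exact ha.2 h1

/-- The intersection property is closed under direct sums over a common index set. -/
theorem sigma_intersection {ι : Type*} {α : ι → Type*} (M N : (i : ι) → Matroid (α i))
    (hE : ∀ i, (M i).E = (N i).E)
    (h : ∀ i, SatisfiesIntersection (M i) (N i)) :
    SatisfiesIntersection (Matroid.sigma M) (Matroid.sigma N) := by
  choose JM JN hdis hM hN hcl using h
  refine ⟨{p | p.2 ∈ JM p.1}, {p | p.2 ∈ JN p.1}, ?_, ?_, ?_, ?_⟩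
  · rw [Set.disjoint_left]
    intro p hp1 hp2
    exact (Set.disjoint_left.mp (hdis p.1)) hp1 hp2
  · rw [Matroid.sigma_indep_iff]
    intro i
    exact hM i
  · rw [Matroid.sigma_indep_iff]
    intro i
    exact hN i
  · apply Set.Subset.antisymm
    · intro p hp
      rcases hp with hp | hp
      · exact (Matroid.sigma M).closure_subset_ground _ hp
      · have h1 := (Matroid.sigma N).closure_subset_ground _ hp
        rw [Matroid.sigma_ground_eq] at h1 ⊢
        refine ⟨Set.mem_univ _, ?_⟩
        have h2 : p.2 ∈ (N p.1).E := h1.2
        rw [← hE p.1] at h2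
        exact h2
    · rintro ⟨i, a⟩ hp
      rw [Matroid.sigma_ground_eq] at hp
      have ha : a ∈ (M i).E := hp.2
      rw [← hcl i] at ha
      rcases ha with ha | ha
      · left
        exact sigma_mem_closure M JM (fun j => (hM j).subset Set.subset_union_left) i a ha
      · right
        exact sigma_mem_closure N JN (fun j => (hN j).subset Set.subset_union_right) i a ha

/-- **Direct sums.** (1) If `(M i, N i)` satisfies intersection for every `i`, so does the pair
of direct sums. (2) In particular the pair of direct sums satisfies intersection as soon as in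
every block the common independent sets have bounded size (the bound may depend on the block). -/
theorem result :
    (∀ (ι : Type) (α : ι → Type) (M N : (i : ι) → Matroid (α i)),
      (∀ i, (M i).E = (N i).E) → (∀ i, SatisfiesIntersection (M i) (N i)) →
      SatisfiesIntersection (Matroid.sigma M) (Matroid.sigma N)) ∧
    (∀ (ι : Type) (α : ι → Type) (M N : (i : ι) → Matroid (α i)),
      (∀ i, (M i).E = (N i).E) →
      (∀ i, ∃ r : ℕ, ∀ I, (M i).Indep I → (N i).Indep I → I.encard ≤ r) →
      SatisfiesIntersection (Matroid.sigma M) (Matroid.sigma N)) := by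
  refine ⟨fun ι α M N hE h => sigma_intersection M N hE h, fun ι α M N hE h => ?_⟩
  refine sigma_intersection M N hE (fun i => ?_)
  obtain ⟨r, hr⟩ := h i
  exact Vale.Agent.Results.P068.FiniteRank.intersection_of_bounded (M i) (N i) (hE i) r hr

end Vale.Agent.Results.P068.DirectSums
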